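import Vale.Agent.Lib.P038.Sat.I.M3_0.H
noncomputable section
namespace Vale.Agent.Lib.P038.Sat.I.M3_0.S0
open Vale.Agent.Lib.P038.Sat Vale.Agent.Lib.P038.Sat.I.M3_0
def b0 : List Nat := [nat_lit 562949953421369,nat_lit 1337014729310216,nat_lit 4727555896295859833185,nat_lit 1196294420824104,nat_lit 33063483683206210275856,nat_lit 1407417833226264,nat_lit 9450498488108010326641,nat_lit 1730508217151801985,nat_lit 3459820113707420288,nat_lit 2883289001450949249,nat_lit 281560876056649]
def p0 : List Nat := [nat_lit 73791479894465585154,nat_lit 147587464488070250500,nat_lit 221383449081674833924,nat_lit 31527396414980103,nat_lit 36032645309784072,nat_lit 40536794692960264,nat_lit 5498095009800]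
def o0 : List Nat := [nat_lit 8]
theorem ok : segCheck (Gen.gen sh_6_0_t (flM 3)) W M GT 4 0 1 H [b0] [] [p0] [o0] = true := by decide +kernel
theorem seg {τ : Nat → Bool} (hgen : ∀ t c, Gen.gen sh_6_0_t (flM 3) t = some c → holdsG τ c)
  (hin : ∀ g, g < 0 → HL W (loc GT τ) (getB H g)) :
  ∀ g, 0 ≤ g → g < 1 → HL W (loc GT τ) (getB H g) :=
  segCheck_sound ok hgen hin
end Vale.Agent.Lib.P038.Sat.I.M3_0.S0
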